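import Vale.Agent.P207.N4.Dim
import Vale.Agent.P207.N7.H751.SB2
import Vale.Agent.P207.N4.H751.FoN
import Vale.Agent.P207.H387.Q4.LemQ

/-!
# P207, quarter pinching: Lemma Q over the picture `Pic` (58), from `AfC`
-/

open Set Filter Topology Metric
open scoped ContDiff

noncomputable section

namespace Vale.Agent.P207.N4.Y.H751

open Vale.Agent.P207.N4.H751 Vale.Agent.P207.N4.H751.Q4
open Vale.Agent.P207.N3 Vale.Agent.P207.N3.Ten Vale.Agent.P207.N4.Ten Vale.Agent.P207.H751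
open Vale.Agent.P207.H686

/-- Lemma Q at all points of the smaller discs -/
def LQat {k0 : ℕ} {E W X : Type} [NormedAddCommGroup E] [NormedSpace ℝ E] [NormedAddCommGroup W]
    [NormedSpace ℝ W] (D : ZDk k0 E W X) : Prop :=
  ∀ e : ℝ, 0 < e → ∀ r r' : ℝ, r' < r → r ≤ 1 → ∀ M : ℕ → ℝ, ∃ C : ℝ, 0 ≤ C ∧
    ∀ (v : X) (σ : E → W) (F : E → ℝ) (δ : ℝ), ContDiffOn ℝ ∞ σ (ball 0 r) →
      ContDiffOn ℝ ∞ F (ball 0 r) →
      (∀ k, ∀ x ∈ ball (0 : E) r, ‖iteratedFDeriv ℝ k σ x‖ ≤ M k) →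
      (∀ k, ∀ x ∈ ball (0 : E) r, ‖iteratedFDeriv ℝ k F x‖ ≤ M k) → 0 < δ → δ ≤ 1 →
      (∀ x ∈ ball (0 : E) r, |D.N v x (σ x) - F x| ≤ δ) →
      ∀ q ∈ ball (0 : E) r', ∃ s ∈ D.Sm v, ‖σ q - s‖ ≤ C * δ ^ (1 - e)

variable [Dim]

variable {Γ X B : Type} [Group Γ] [MetricSpace X] [ProperSpace X] [MulAction Γ X]
  [IsIsometricSMul Γ X] [TopologicalSpace B] [CompactSpace B] [T2Space B] [MulAction Γ B]
  [ContinuousConstSMul Γ B]

variable {L : Leaf Γ X B} [MeasurableSpace B] [BorelSpace B] {V : Type}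
  [NormedAddCommGroup V] [NormedSpace ℝ V] [FiniteDimensional ℝ V] (P : Pic L V)

/-- (C1) for affine sections over the picture, for all large orders -/
def AfP (hR : P.RateP) : Prop := ∃ i0 : ℕ, ∀ i ≥ i0, H387.Q4.AfC (pzd P hR) i

theorem lqat_of (hR : P.RateP) (hA : AfP P hR) : LQat (pzd P hR) := by
  obtain ⟨i0, h⟩ := hA
  exact H387.Q4.lemmaQ_at (pzd P hR) (pzd_h4 P hR) h

/-- Lemma Q over the picture, for all radii (the text of 547's `LQr`) -/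
theorem lqr_of (hR : P.RateP) (hQ : LQat (pzd P hR)) :
    ∀ e : ℝ, 0 < e → ∀ r r' : ℝ, r' < r → r ≤ 1 → ∀ M : ℕ → ℝ, ∃ C : ℝ, 0 ≤ C ∧
      ∀ (x : X) (σ : E2 → E2 →L[ℝ] E2) (F : E2 → ℝ) (δ : ℝ), ContDiffOn ℝ ∞ σ (ball 0 r) →
        ContDiffOn ℝ ∞ F (ball 0 r) →
        (∀ k, ∀ y ∈ ball (0 : E2) r, ‖iteratedFDeriv ℝ k σ y‖ ≤ M k) →
        (∀ k, ∀ y ∈ ball (0 : E2) r, ‖iteratedFDeriv ℝ k F y‖ ≤ M k) → 0 < δ → δ ≤ 1 →
        (∀ y ∈ ball (0 : E2) r, |Pic.pr (P.Na x y) (σ y) - F y| ≤ δ) →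
        ∀ q ∈ ball (0 : E2) r', ∃ s ∈ P.Sm x, ‖σ q - s‖ ≤ C * δ ^ (1 - e) := by
  intro e he r r' h2 h3 M
  obtain ⟨C, hC0, hC⟩ := hQ e he r r' h2 h3 M
  refine ⟨C, hC0, fun x σ F δ hσ hF hσM hFM hd hd1 hb q hq => ?_⟩
  have s1 : ContDiffOn ℝ ∞ (fun y => fo (σ y)) (ball 0 r) :=
    (fo : (E2 →L[ℝ] E2) →L[ℝ] Fm E2).contDiff.comp_contDiffOn hσ
  obtain ⟨s', hs', hle⟩ := hC x (fun y => fo (σ y)) F δ s1 hF (fun k y hy => by
    rw [iter_fo (hσ.contDiffAt (isOpen_ball.mem_nhds hy))]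
    exact hσM k y hy) (fun k y hy => hFM k y hy) hd hd1 (fun y hy => by
    have e1 := pr_eq P x (ball_subset_closedBall (ball_subset_ball
      (by linarith : r ≤ 2) hy)) (σ y)
    have e2 := hb y hy
    rw [← e1] at e2
    exact e2) q hq
  obtain ⟨s, rfl⟩ := fo_surj s'
  refine ⟨s, (mem_Sm_iff P hR x s).2 hs', ?_⟩
  rw [← map_sub, fo_norm] at hle
  exact hle

/-- **(LQ)** from Lemma Q of the zoom data -/
theorem lq_of (hR : P.RateP) (hQ : LQat (pzd P hR)) : P.LQ := by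
  intro κ Mk hκ
  obtain ⟨C, -, hC⟩ := lqr_of P hR hQ (1 - κ) (by linarith) 1 (1 / 2) (by norm_num) le_rfl Mk
  refine ⟨C, fun x σ F d hd hd1 hσ hF hb hN q hq => ?_⟩
  have h2 := hC x σ F d hσ hF (fun k y hy => (hb k y hy).1) (fun k y hy => (hb k y hy).2)
    hd hd1 hN q hq
  rwa [sub_sub_cancel] at h2

/-- **(LQ)** from (C1) for affine sections -/
theorem lq_afc (hR : P.RateP) (hA : AfP P hR) : P.LQ := lq_of P hR (lqat_of P hR hA)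

end Vale.Agent.P207.N4.Y.H751
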